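import Vale.Agent.P203.YFinal

namespace Vale.Agent.Results.P203.Orbit

open Vale.Agent.P203

theorem result {B : Type} [Finite B] (M : CoxeterMatrix B) :
    PathConnectedSpace (YQ M) ∧
      ∀ n : ℕ, 2 ≤ n → ∀ x : YQ M, Subsingleton (HomotopyGroup.Pi n (YQ M) x) :=
  yq_aspherical M

end Vale.Agent.Results.P203.Orbit
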