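import Vale.Agent.P203.Final

namespace Vale.Agent.Results.P203.Salvetti

open Vale.Agent.P203

theorem result {B W : Type} [Finite B] [Group W] {M : CoxeterMatrix B}
    (cs : CoxeterSystem M W) :
    PathConnectedSpace (SalQ cs) ∧
      ∀ n : ℕ, 2 ≤ n → ∀ x : SalQ cs, Subsingleton (HomotopyGroup.Pi n (SalQ cs) x) :=
  salQ_aspherical cs

end Vale.Agent.Results.P203.Salvetti
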